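import Vale.Agent.P091.TOP.H663.Top
import Vale.Agent.P091.TOP.H847.Cap
import Vale.Agent.P091.TOP.H847.S3
import Vale.Agent.P091.TOP.H39.S15
import Vale.Agent.P091.TOP.H827.Switch
import Vale.Agent.P091.TOP.H814.Sw
import Vale.Agent.P091.TOP.H69.Let
import Vale.Agent.P091.CH.H66.Final
import Vale.Agent.P091.H750.Grid
import Vale.Agent.P091.H253.Weak

/-!
# P091: the whole outer line, from HEAVY to Q1 (helper663)

`outer`: HEAVY implies the grid form of (A);
`q1_of_heavy`: HEAVY implies the almost everywhere convergence, literally `Spec.Q1`;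
`weak_of_heavy`: HEAVY implies the weak type estimate of the maximal partial sum operator on
`L log L` (helper253's `weak_type`).
-/

set_option autoImplicit false

open MeasureTheory AddCircle Filter
open scoped ENNReal Topology

namespace Vale.Agent.P091.TOP.H663

open Vale.Agent.P091.CH Vale.Agent.P091.TOP

theorem capLight : CAPLIGHT := by
  obtain ⟨C, hC, h⟩ := H847.cap_light H43.p_MSU H66.lightN
  exact ⟨C, hC, fun D hD K cap p N h1 h2 h3 h4 h5 => h D K cap p N hD h1 h2 h3 h4 h5⟩

theorem sw : P_SW := H814.sw_of H39.s1 H847.p_S3 H827.p_S4 H39.s5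

/-- the outer line: HEAVY implies the grid form of (A) -/
theorem outer (hH : Spec.HEAVY) : H253.PGRID :=
  PGRID_of capLight sw H69.pLET (H750.gridrow hH)

/-- HEAVY implies the almost everywhere convergence of Fourier series on `L log L` -/
theorem q1_of_heavy (hH : Spec.HEAVY) : Spec.Q1 := by
  intro T _ f hm hL
  exact H253.ae_convergence_of_PGRID (outer hH) f hm hL

/-- HEAVY implies the weak type estimate of the maximal partial sum operator on `L log L` -/
theorem weak_of_heavy (hH : Spec.HEAVY) {T : ℝ} [Fact (0 < T)] :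
    ∃ C : ℝ, 0 < C ∧ ∀ (f : AddCircle T → ℂ) (a : ℝ),
    AEStronglyMeasurable f haarAddCircle → 0 < a →
    Integrable (fun x => ‖f x‖ / a * Real.log (2 + ‖f x‖ / a)) haarAddCircle →
    ∫ x, ‖f x‖ / a * Real.log (2 + ‖f x‖ / a) ∂haarAddCircle ≤ 1 →
    ∀ lam : ℝ, 0 < lam →
      haarAddCircle {x : AddCircle T | ∃ N : ℕ, lam <
        ‖∑ k ∈ Finset.Icc (-(N : ℤ)) (N : ℤ), fourierCoeff f k * fourier k x‖} ≤
      ENNReal.ofReal (C * a / lam) :=
  H253.weak_type (H253.PAw_of_PGRID H69.pHL1 (outer hH))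

end Vale.Agent.P091.TOP.H663
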