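import Vale.Agent.P091.TOP.Props
import Vale.Agent.P091.TOP.H69.Letter
import Vale.Agent.P091.H253.Grid
import Vale.Agent.P091.H750.GridRow

/-!
# P091, TOP: from SWITCH, the light part and the one-grid statement to PGRID (helper663)
-/

set_option autoImplicit false

open Finset

noncomputable section

namespace Vale.Agent.P091.TOP.H663

open Vale.Agent.P091.CH Vale.Agent.P091.TOP

/-- the light part with the stopping rule, capped (owner helper847) -/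
def CAPLIGHT : Prop := ∃ C : ℝ, 0 ≤ C ∧ ∀ (D : ℝ), 0 ≤ D →
  ∀ (K cap : ℕ) (p : X K → ℝ) (N : X K → ℕ), 8 ≤ K → cap + 6 ≤ K →
  (∀ x, 0 ≤ p x) → (∀ x, p x ≤ Real.exp D) → (∀ x, 8 * (N x + 1) ≤ 2 ^ K) →
  ∃ (U : Finset Tile) (κ : X K → ℕ) (u : X K → Option Tile),
    (∀ s ∈ U, s.k + 6 ≤ K ∧ s.j < 2 ^ s.k) ∧
    (∑ s ∈ U, s.len ≤ C * Real.exp (4 * D)) ∧
    (∀ x, κ x ≤ cap) ∧ (∀ x, u x = none → κ x = cap) ∧
    (∀ x s, u x = some s → s ∈ U ∧ κ x < cap ∧ s.k ≤ κ x ∧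
      s.j * 2 ^ (K - s.k) ≤ x.val ∧ x.val < (s.j + 1) * 2 ^ (K - s.k) ∧
      |N1 K (N x) - s.l * 2 ^ s.k| ≤ 12 * 2 ^ (κ x)) ∧
    (∀ W : Finset (X K), (∑ x ∈ W, ‖tiles (κ x) (N1 K (N x)) (fM p) x‖) / 2 ^ K ≤ C)

/-- the body of GRIDROW -/
def GR (C0 C : ℝ) : Prop := ∀ (D : ℝ), 2 ≤ D →
  ∀ (r m n : ℕ) (a : ℤ) (p : ℤ → ℝ), 1 ≤ r → n ≤ r * 2 ^ (m + 1) →
  (∀ y, 0 ≤ p y) → (∀ y, p y ≤ Real.exp D) →
  (∀ s : ℤ, ∑ y ∈ Ico s (s + (r * 2 ^ (m + 1) : ℕ)), p y ≤ 2 * (r * 2 ^ (m + 1) : ℕ)) →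
  ∀ (U : Type) [Fintype U] (ξ : U → ℝ) (V : U → Finset ℤ) (u : ℤ → U) (b : ℤ → ℕ)
    (W : Finset ℤ), W ⊆ Ico 0 (n : ℤ) →
    (∀ k, m * r * |ξ k| ≤ 1) →
    (∀ x ∈ W, b x ≤ m) →
    (∀ x ∈ W, 1 ≤ b x → ∀ s : ℤ, s ≤ x → x < s + (r * 2 ^ (b x + 1) : ℕ) →
      Ico s (s + (r * 2 ^ (b x + 1) : ℕ)) ⊆ V (u x)) →
    (∑ k, ((V k).card : ℝ) ≤ Real.exp (C0 * D) * (r * 2 ^ (m + 1) : ℕ)) →
    (∀ x ∈ W, ∀ (s : ℤ) (L : ℕ), r ≤ L → L ≤ r * 2 ^ (m + 1) → s ≤ x → x < s + L →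
      ∑ y ∈ Ico s (s + L), p y ≤ Real.log D ^ 2 * L) →
    ∑ x ∈ W, ‖∑ i ∈ range (b x),
        PET.T ((r : ℤ) * 2 ^ i) a (fun y => (p y : ℂ) * Spec.e (-(ξ (u x) * y))) x‖
      ≤ C * D * (r * 2 ^ (m + 1) : ℕ)

theorem gridrow_iff : H750.GRIDROW ↔ ∀ C0 : ℝ, 0 ≤ C0 → ∃ C : ℝ, 0 ≤ C ∧ GR C0 C := Iff.rfl

/-- the letter -/
def lett (K : ℕ) : Option Tile → ℝ
  | none => 0
  | some s => ((s.l * 2 ^ s.k - MM K : ℤ) : ℝ)

/-- the region of a letter -/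
def reg (K : ℕ) : Option Tile → Finset ℤ
  | none => Ico (-(2:ℤ) ^ K) (2 * 2 ^ K)
  | some s => Ico (((s.j : ℤ) - 1) * 2 ^ (K - s.k)) (((s.j : ℤ) + 2) * 2 ^ (K - s.k))

theorem card_reg_none (K : ℕ) : ((reg K none).card : ℝ) = 3 * 2 ^ K := by
  unfold reg
  rw [Int.card_Ico]
  have : (2 * 2 ^ K - -(2:ℤ) ^ K) = ((3 * 2 ^ K : ℕ) : ℤ) := by push_cast; ring
  rw [this, Int.toNat_natCast]
  push_cast
  ring

theorem card_reg_some {K : ℕ} (s : Tile) (hs : s.k ≤ K) :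
    ((reg K (some s)).card : ℝ) = 3 * 2 ^ K * s.len := by
  unfold reg Tile.len
  rw [Int.card_Ico]
  have : (((s.j : ℤ) + 2) * 2 ^ (K - s.k) - ((s.j : ℤ) - 1) * 2 ^ (K - s.k))
      = ((3 * 2 ^ (K - s.k) : ℕ) : ℤ) := by push_cast; ring
  rw [this, Int.toNat_natCast]
  push_cast
  have h : (2:ℝ) ^ K = 2 ^ (K - s.k) * 2 ^ s.k := by
    rw [← pow_add, Nat.sub_add_cancel hs]
  rw [h]
  field_simp

/-- periodic sums over long intervals -/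
theorem sum_long {K : ℕ} (p : X K → ℝ) (hp : ∀ x, 0 ≤ p x) (hav : ave p ≤ 1) (L : ℕ)
    (h1 : 2 ^ K ≤ L) (h2 : L ≤ 2 * 2 ^ K) (s : ℤ) :
    ∑ y ∈ Ico s (s + (L : ℤ)), p (y : X K) ≤ 2 * L := by
  have hs : ∑ y ∈ Ico s (s + (L : ℤ)), p (y : X K) ≤ ∑ y ∈ Ico s (s + 2 * 2 ^ K), p (y : X K) := by
    refine sum_le_sum_of_subset_of_nonneg ?_ fun _ _ _ => hp _
    intro y hy
    rw [mem_Ico] at hy ⊢
    have h3 : (L : ℤ) ≤ 2 * 2 ^ K := by exact_mod_cast h2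
    omega
  refine hs.trans ?_
  have e1 : ∑ y ∈ Ico s (s + 2 * 2 ^ K), p (y : X K)
      = ∑ v ∈ Ico (0:ℤ) ((2 : ℕ) * 2 ^ K), p ((s + v : ℤ) : X K) := by
    refine sum_nbij' (fun y => y - s) (fun v => s + v) ?_ ?_ ?_ ?_ ?_
    · intro y hy; rw [mem_Ico] at hy ⊢; push_cast; omega
    · intro y hy; rw [mem_Ico] at hy ⊢; push_cast at hy; omega
    · intro y _; ring
    · intro y _; ring
    · intro y _
      have : s + (y - s) = y := by ring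
      rw [this]
  rw [e1, H69.sum_periods s p 2]
  unfold ave at hav
  rw [div_le_iff₀ (by positivity)] at hav
  have h3 : (2:ℝ) ^ K ≤ L := by exact_mod_cast h1
  push_cast
  linarith

/-- one grid: the sum over the alive points, with the exact letters -/
theorem one_grid {C0 C4 : ℝ} (hGR : GR C0 C4) {D : ℝ} (hD : 2 ≤ D) {K ρ k : ℕ} (a : ℤ)
    (p : X K → ℝ) (hp : ∀ x, 0 ≤ p x) (hpD : ∀ x, p x ≤ Real.exp D) (hav : ave p ≤ 1)
    (κ : X K → ℕ) (u : X K → Option Tile) (U : Finset Tile) (B : ℝ)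
    (hk : k < 2 ^ ρ) (hκ : ∀ x, κ x + ρ + 3 ≤ K)
    (hU : ∀ s ∈ U, s.k + 6 ≤ K)
    (hlen : 3 * 2 ^ K * (1 + ∑ s ∈ U, s.len) ≤ Real.exp (C0 * D) * 2 ^ K)
    (hu : ∀ x s, u x = some s → s ∈ U ∧ s.k ≤ κ x ∧
      s.j * 2 ^ (K - s.k) ≤ x.val ∧ x.val < (s.j + 1) * 2 ^ (K - s.k))
    (hB : ∀ x, |lett K (u x)| ≤ B)
    (hBK : (K : ℝ) * (2 * 2 ^ ρ) * (B / 2 ^ K) ≤ 1) :
    ∑ x ∈ univ.filter (fun x : X K => MX p x ≤ 1 / 2 * Real.log D ^ 2),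
      ‖PET.Sh (2 ^ ρ + k) (K - ρ - κ x - 3) a (Fc p (lett K (u x))) (x.val : ℤ)‖
      ≤ C4 * D * ((2 ^ ρ + k) * 2 ^ (K - ρ) : ℕ) := by
  classical
  have hρK : ρ + 3 ≤ K := by have := hκ 0; omega
  have hm : K - ρ - 1 + 1 = K - ρ := by omega
  have hpow : 2 ^ ρ * 2 ^ (K - ρ) = 2 ^ K := by rw [← pow_add]; congr 1; omega
  have hr1 : 1 ≤ 2 ^ ρ + k := by have := Nat.one_le_two_pow (n := ρ); omega
  have hlow : 2 ^ K ≤ (2 ^ ρ + k) * 2 ^ (K - ρ) := by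
    rw [add_mul, hpow]; exact Nat.le_add_right _ _
  have hup : (2 ^ ρ + k) * 2 ^ (K - ρ) ≤ 2 * 2 ^ K := by
    have : (2 ^ ρ + k) * 2 ^ (K - ρ) ≤ (2 * 2 ^ ρ) * 2 ^ (K - ρ) :=
      Nat.mul_le_mul_right _ (by omega)
    rwa [mul_assoc, hpow] at this
  have hval : ∀ x : X K, (((x.val : ℕ) : ℤ) : X K) = x := fun x => by
    rw [Int.cast_natCast]; exact ZMod.natCast_zmod_val x
  have hval' : ∀ y : ℤ, 0 ≤ y → y < ((2 ^ K : ℕ) : ℤ) → (((y : X K).val : ℕ) : ℤ) = y := by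
    intro y h0 h1
    rw [ZMod.val_intCast, Int.emod_eq_of_lt h0 h1]
  set LL : Finset (Option Tile) := univ.image u with hLL
  have hmem : ∀ x, u x ∈ LL := fun x => mem_image_of_mem u (mem_univ _)
  let ξ : LL → ℝ := fun o => lett K o.1 / 2 ^ K
  let V : LL → Finset ℤ := fun o => reg K o.1
  let u' : ℤ → LL := fun x => ⟨u (x : X K), hmem _⟩
  let b : ℤ → ℕ := fun x => K - ρ - κ (x : X K) - 3
  let W : Finset ℤ := (Ico 0 ((2 ^ K : ℕ) : ℤ)).filter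
    (fun x => MX p (x : X K) ≤ 1 / 2 * Real.log D ^ 2)
  have h2K : (0:ℝ) < 2 ^ K := by positivity
  have H := hGR D hD (2 ^ ρ + k) (K - ρ - 1) (2 ^ K) a (fun y => p (y : X K)) hr1
    (by rw [hm]; exact hlow) (fun y => hp _) (fun y => hpD _)
    (by
      intro s
      rw [hm]
      exact sum_long p hp hav _ hlow hup s)
    LL ξ V u' b W (filter_subset _ _)
    (by
      rintro ⟨o, ho⟩
      obtain ⟨x, _, rfl⟩ := mem_image.1 ho
      show ((K - ρ - 1 : ℕ) : ℝ) * ((2 ^ ρ + k : ℕ) : ℝ) * |lett K (u x) / 2 ^ K| ≤ 1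
      refine le_trans ?_ hBK
      have e1 : ((K - ρ - 1 : ℕ) : ℝ) ≤ K := by
        have : K - ρ - 1 ≤ K := by omega
        exact_mod_cast this
      have e2 : ((2 ^ ρ + k : ℕ) : ℝ) ≤ 2 * 2 ^ ρ := by
        have : 2 ^ ρ + k ≤ 2 * 2 ^ ρ := by omega
        exact_mod_cast this
      have e3 : |lett K (u x) / 2 ^ K| ≤ B / 2 ^ K := by
        rw [abs_div, abs_of_pos h2K]
        exact div_le_div_of_nonneg_right (hB x) h2K.le
      gcongr)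
    (by
      intro x _
      show K - ρ - κ (x : X K) - 3 ≤ K - ρ - 1
      omega)
    (by
      intro x hx _ s hs1 hs2
      obtain ⟨hx1, -⟩ := mem_filter.1 hx
      rw [mem_Ico] at hx1
      have hv := hval' x hx1.1 hx1.2
      have hK1 : ((2 ^ K : ℕ) : ℤ) = 2 ^ K := by push_cast; rfl
      show Ico s (s + (((2 ^ ρ + k) * 2 ^ (K - ρ - κ (x : X K) - 3 + 1) : ℕ) : ℤ))
        ⊆ reg K (u (x : X K))
      have hs2' : x < s + (((2 ^ ρ + k) * 2 ^ (K - ρ - κ (x : X K) - 3 + 1) : ℕ) : ℤ) := hs2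
      have hκx := hκ (x : X K)
      have hlenI : (2 ^ ρ + k) * 2 ^ (K - ρ - κ (x : X K) - 3 + 1) ≤ 2 ^ (K - κ (x : X K) - 1) := by
        calc (2 ^ ρ + k) * 2 ^ (K - ρ - κ (x : X K) - 3 + 1)
            ≤ (2 ^ (ρ + 1)) * 2 ^ (K - ρ - κ (x : X K) - 3 + 1) := by
              refine Nat.mul_le_mul_right _ ?_
              rw [pow_succ]; omega
          _ = 2 ^ (K - κ (x : X K) - 1) := by rw [← pow_add]; congr 1; omega
      set ℓ : ℕ := (2 ^ ρ + k) * 2 ^ (K - ρ - κ (x : X K) - 3 + 1) with hℓ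
      rcases hux : u (x : X K) with _ | t
      · have h1 : ℓ ≤ 2 ^ K := hlenI.trans (Nat.pow_le_pow_right (by norm_num) (by omega))
        have h1' : (ℓ : ℤ) ≤ 2 ^ K := by exact_mod_cast h1
        intro y hy
        show y ∈ Ico (-(2:ℤ) ^ K) (2 * 2 ^ K)
        rw [mem_Ico] at hy ⊢
        rw [hK1] at hx1
        omega
      · obtain ⟨_, g1, g2, g3⟩ := hu _ _ hux
        have h1 : ℓ ≤ 2 ^ (K - t.k) := hlenI.trans (Nat.pow_le_pow_right (by norm_num) (by omega))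
        have h1' : (ℓ : ℤ) ≤ 2 ^ (K - t.k) := by exact_mod_cast h1
        have g2' : (t.j : ℤ) * 2 ^ (K - t.k) ≤ x := by
          rw [← hv]; exact_mod_cast g2
        have g3' : x < (t.j : ℤ) * 2 ^ (K - t.k) + 2 ^ (K - t.k) := by
          rw [← hv]
          have : ((x : X K).val : ℤ) < ((t.j + 1 : ℕ) : ℤ) * 2 ^ (K - t.k) := by exact_mod_cast g3
          push_cast at this
          rw [add_mul, one_mul] at this
          exact this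
        intro y hy
        show y ∈ Ico (((t.j : ℤ) - 1) * 2 ^ (K - t.k)) (((t.j : ℤ) + 2) * 2 ^ (K - t.k))
        rw [mem_Ico] at hy ⊢
        rw [sub_mul, add_mul, one_mul]
        generalize (t.j : ℤ) * 2 ^ (K - t.k) = A at *
        generalize (2:ℤ) ^ (K - t.k) = Q at *
        omega)
    (by
      rw [hm]
      have e1 : ∑ o : LL, ((V o).card : ℝ) = ∑ o ∈ LL, ((reg K o).card : ℝ) :=
        sum_coe_sort LL (fun o => ((reg K o).card : ℝ))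
      rw [e1]
      have e2 : LL ⊆ insert none (U.image some) := by
        intro o ho
        obtain ⟨x, _, rfl⟩ := mem_image.1 ho
        rcases hux : u x with _ | t
        · exact mem_insert_self _ _
        · exact mem_insert_of_mem (mem_image_of_mem _ (hu _ _ hux).1)
      refine (sum_le_sum_of_subset_of_nonneg e2 fun _ _ _ => Nat.cast_nonneg _).trans ?_
      rw [sum_insert (by simp), sum_image (fun a _ b _ h => Option.some.inj h), card_reg_none]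
      have e3 : ∑ t ∈ U, ((reg K (some t)).card : ℝ) = 3 * 2 ^ K * ∑ t ∈ U, t.len := by
        rw [mul_sum]
        refine sum_congr rfl fun t ht => card_reg_some t ?_
        have := hU t ht; omega
      rw [e3]
      have e4 : ((2:ℝ) ^ K) ≤ (((2 ^ ρ + k) * 2 ^ (K - ρ) : ℕ) : ℝ) := by exact_mod_cast hlow
      calc 3 * 2 ^ K + 3 * 2 ^ K * ∑ t ∈ U, t.len = 3 * 2 ^ K * (1 + ∑ s ∈ U, s.len) := by ring
        _ ≤ Real.exp (C0 * D) * 2 ^ K := hlen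
        _ ≤ _ := by gcongr)
    (by
      intro x hx s L _ _ hs1 hs2
      obtain ⟨_, hx2⟩ := mem_filter.1 hx
      have e1 : ∑ y ∈ Ico s (s + (L : ℤ)), p (y : X K) = ∑ v ∈ Ico (0:ℤ) L, p ((s + v : ℤ) : X K) := by
        refine sum_nbij' (fun y => y - s) (fun v => s + v) ?_ ?_ ?_ ?_ ?_
        · intro y hy; rw [mem_Ico] at hy ⊢; omega
        · intro y hy; rw [mem_Ico] at hy ⊢; omega
        · intro y _; ring
        · intro y _; ring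
        · intro y _
          have : s + (y - s) = y := by ring
          rw [this]
      have e2 := H69.sum_interval_le p hs1 hs2
      show ∑ y ∈ Ico s (s + (L : ℤ)), p (y : X K) ≤ _
      rw [e1]
      have e3 : ∑ v ∈ Ico (0:ℤ) L, p ((s + v : ℤ) : X K) ≤ ∑ v ∈ Ico (0:ℤ) L, |p ((s + v : ℤ) : X K)| :=
        sum_le_sum fun v _ => le_abs_self _
      have e4 : 2 * ((L : ℤ) : ℝ) * MX p (x : X K) ≤ 2 * ((L : ℤ) : ℝ) * (1 / 2 * Real.log D ^ 2) := by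
        gcongr
      have e5 : ((L : ℤ) : ℝ) = (L : ℝ) := Int.cast_natCast _
      rw [e5] at e2 e4
      linarith)
  rw [hm] at H
  refine le_trans (le_of_eq ?_) H
  refine sum_nbij' (fun x : X K => (x.val : ℤ)) (fun y : ℤ => (y : X K)) ?_ ?_ ?_ ?_ ?_
  · intro x hx
    rw [mem_filter] at hx
    refine mem_filter.2 ⟨mem_Ico.2 ⟨by positivity, ?_⟩, ?_⟩
    · exact_mod_cast ZMod.val_lt x
    · rw [hval]; exact hx.2
  · intro y hy
    exact mem_filter.2 ⟨mem_univ _, (mem_filter.1 hy).2⟩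
  · intro x _; exact hval x
  · intro y hy
    have := mem_Ico.1 (mem_filter.1 hy).1
    exact hval' y this.1 this.2
  · intro x _
    show ‖PET.Sh (2 ^ ρ + k) (K - ρ - κ x - 3) a (Fc p (lett K (u x))) (x.val : ℤ)‖
      = ‖∑ i ∈ range (K - ρ - κ (((x.val : ℕ) : ℤ) : X K) - 3),
        PET.T (((2 ^ ρ + k : ℕ) : ℤ) * 2 ^ i) a (fun y => (p (y : X K) : ℂ)
          * Spec.e (-((lett K (u (((x.val : ℕ) : ℤ) : X K)) / 2 ^ K) * y))) (x.val : ℤ)‖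
    rw [hval]
    unfold PET.Sh
    have e1 : Fc p (lett K (u x)) = (fun y : ℤ => (p (y : X K) : ℂ)
          * Spec.e (-((lett K (u x) / 2 ^ K) * y))) := by
      funext y
      unfold Fc
      rw [div_mul_eq_mul_div]
    rw [e1]

/-- `(log D)^2 ≤ 4 D` -/
theorem log_sq_le {D : ℝ} (hD : 1 ≤ D) : Real.log D ^ 2 ≤ 4 * D := by
  have h1 : Real.log D = 2 * Real.log (√D) := by rw [Real.log_sqrt (by linarith)]; ring
  have h0 : 0 < √D := Real.sqrt_pos.2 (by linarith)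
  have h2 : Real.log √D ≤ √D := by
    have := Real.log_le_sub_one_of_pos h0; linarith
  have h3 : 0 ≤ Real.log √D := Real.log_nonneg (Real.one_le_sqrt.2 hD)
  have h4 : √D ^ 2 = D := Real.sq_sqrt (by linarith)
  rw [h1, mul_pow]
  have h5 : Real.log √D ^ 2 ≤ √D ^ 2 := pow_le_pow_left₀ h3 h2 2
  rw [h4] at h5
  linarith

/-- exponentials beat squares -/
theorem large (M : ℝ) : ∃ K1 : ℕ, ∀ K : ℕ, K1 ≤ K → M * (K : ℝ) ^ 2 ≤ 2 ^ K := by
  have h := tendsto_pow_const_div_const_pow_of_one_lt 2 (r := (2:ℝ)) (by norm_num)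
  have h2 : ∀ᶠ n : ℕ in Filter.atTop, ((n : ℝ) ^ 2 / 2 ^ n) < 1 / (|M| + 1) :=
    h.eventually_lt_const (by positivity)
  obtain ⟨K1, hK1⟩ := Filter.eventually_atTop.1 h2
  refine ⟨K1, fun K hK => ?_⟩
  have h3 := hK1 K hK
  have hp : (0:ℝ) < 2 ^ K := by positivity
  rw [div_lt_div_iff₀ hp (by positivity), one_mul] at h3
  have h4 : M * (K:ℝ) ^ 2 ≤ (|M| + 1) * (K:ℝ) ^ 2 := by
    have := le_abs_self M
    have h5 : (0:ℝ) ≤ (K:ℝ) ^ 2 := by positivity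
    nlinarith
  linarith

/-- summing the weights of the grids -/
theorem weights {ρ m : ℕ} (F : ℕ → ℤ → ℝ) (S : ℝ) (hS : 0 ≤ S)
    (hF : ∀ k < 2 ^ ρ, ∀ a, F k a ≤ S) :
    ∑ k ∈ range (2 ^ ρ), ∑ a ∈ Ico (0:ℤ) (((2 ^ ρ + k : ℕ) : ℤ) * 2 ^ (m + 1)),
      (1 / (((2 ^ ρ + k : ℕ) : ℝ) * (((2 ^ ρ + k : ℕ) : ℝ) * 2 ^ (m + 1)))) * F k a ≤ S := by
  have h1 : ∀ k ∈ range (2 ^ ρ), ∑ a ∈ Ico (0:ℤ) (((2 ^ ρ + k : ℕ) : ℤ) * 2 ^ (m + 1)),
      (1 / (((2 ^ ρ + k : ℕ) : ℝ) * (((2 ^ ρ + k : ℕ) : ℝ) * 2 ^ (m + 1)))) * F k a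
      ≤ S / 2 ^ ρ := by
    intro k hk
    have hk' := mem_range.1 hk
    set r : ℕ := 2 ^ ρ + k with hr
    have hr0 : (0:ℝ) < r := by
      have : 0 < r := by rw [hr]; positivity
      exact_mod_cast this
    have hcard : ((Ico (0:ℤ) ((r : ℤ) * 2 ^ (m + 1))).card : ℝ) = r * 2 ^ (m + 1) := by
      rw [Int.card_Ico, sub_zero]
      have : ((r : ℤ) * 2 ^ (m + 1)) = ((r * 2 ^ (m + 1) : ℕ) : ℤ) := by push_cast; ring
      rw [this, Int.toNat_natCast]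
      push_cast
      ring
    calc ∑ a ∈ Ico (0:ℤ) ((r : ℤ) * 2 ^ (m + 1)), (1 / ((r : ℝ) * ((r : ℝ) * 2 ^ (m + 1)))) * F k a
        ≤ ∑ a ∈ Ico (0:ℤ) ((r : ℤ) * 2 ^ (m + 1)), (1 / ((r : ℝ) * ((r : ℝ) * 2 ^ (m + 1)))) * S := by
          refine sum_le_sum fun a _ => ?_
          exact mul_le_mul_of_nonneg_left (hF k hk' a) (by positivity)
      _ = S / r := by
          rw [sum_const, nsmul_eq_mul, hcard]
          field_simp
      _ ≤ S / 2 ^ ρ := by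
          refine div_le_div_of_nonneg_left hS (by positivity) ?_
          rw [hr]; push_cast
          have : (0:ℝ) ≤ k := Nat.cast_nonneg _
          linarith
  refine (sum_le_sum h1).trans (le_of_eq ?_)
  rw [sum_const, card_range, nsmul_eq_mul]
  push_cast
  field_simp

/-- **TOP**: from SWITCH, the light part and the one-grid statement to the grid form of (A) -/
theorem PGRID_of (hC : CAPLIGHT) (hS : P_SW) (hL : P_LET) (hG : H750.GRIDROW) : H253.PGRID := by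
  classical
  obtain ⟨C1, hC1, hC⟩ := hC
  obtain ⟨C2', hS⟩ := hS
  obtain ⟨C3', hL⟩ := hL 3
  obtain ⟨C4, hC4, hGR⟩ := gridrow_iff.1 hG (4 + 3 * (1 + C1)) (by positivity)
  set C2 := |C2'| with hC2
  set C3 := |C3'| with hC3
  have hC2' : C2' ≤ C2 := le_abs_self _
  have hC3' : C3' ≤ C3 := le_abs_self _
  have hC20 : 0 ≤ C2 := abs_nonneg _
  have hC30 : 0 ≤ C3 := abs_nonneg _
  refine ⟨2 * C1 + C2 * (2 * C4 + 2 * C3 + 5), 1 / 2, by positivity, by norm_num, ?_⟩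
  intro D hD N0
  set cap : ℕ := N0 + 1 with hcap
  set B : ℝ := N0 + 1 + 12 * 2 ^ cap with hBdef
  obtain ⟨K1, hK1⟩ := large (2 ^ (cap + 4) + 8 * (N0 + 1) + 4 * B + 2 * (N0 + 1) * Real.exp D)
  refine ⟨max K1 (cap + 8), ?_⟩
  intro K hK p hp hpD hav N hN
  have hK2 := hK1 K (le_trans (le_max_left _ _) hK)
  have hKcap : cap + 8 ≤ K := le_trans (le_max_right _ _) hK
  have h2K : (0:ℝ) < 2 ^ K := by positivity
  have hB0 : 0 ≤ B := by positivity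
  have hK1' : (1:ℝ) ≤ K := by
    have : 1 ≤ K := by omega
    exact_mod_cast this
  have hKsq : (K:ℝ) ≤ (K:ℝ) ^ 2 := by nlinarith
  have hKsq1 : (1:ℝ) ≤ (K:ℝ) ^ 2 := by nlinarith
  have hexp : 0 < Real.exp D := Real.exp_pos _
  -- the four consequences of `K` large
  have t0 : (0:ℝ) ≤ 2 ^ (cap + 4) * (K:ℝ) ^ 2 := by positivity
  have t1 : (0:ℝ) ≤ 8 * (N0 + 1) * (K:ℝ) ^ 2 := by positivity
  have t2 : (0:ℝ) ≤ 4 * B * (K:ℝ) ^ 2 := by positivity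
  have t3 : (0:ℝ) ≤ 2 * (N0 + 1) * Real.exp D * (K:ℝ) ^ 2 := by positivity
  have a0 : 2 ^ (cap + 4) * (K:ℝ) ^ 2 ≤ 2 ^ K := by linarith
  have a1 : 8 * ((N0:ℝ) + 1) * (K:ℝ) ^ 2 ≤ 2 ^ K := by linarith
  have a2 : 4 * B * (K:ℝ) ^ 2 ≤ 2 ^ K := by linarith
  have a3 : 2 * ((N0:ℝ) + 1) * Real.exp D * (K:ℝ) ^ 2 ≤ 2 ^ K := by linarith
  -- the parameters of the grids
  set ρ : ℕ := Nat.log 2 K + 1 with hρ
  have hρ1 : K < 2 ^ ρ := Nat.lt_pow_succ_log_self (by norm_num) K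
  have hρ2 : 2 ^ ρ ≤ 2 * K := by
    rw [hρ, pow_succ, mul_comm]
    exact Nat.mul_le_mul_left _ (Nat.pow_log_le_self 2 (by omega))
  have hρ1r : (K:ℝ) ≤ 2 ^ ρ := by exact_mod_cast hρ1.le
  have hρ2r : (2:ℝ) ^ ρ ≤ 2 * K := by exact_mod_cast hρ2
  have hρ4 : 4 ≤ ρ := by
    by_contra hcon
    have h1 : 2 ^ ρ ≤ 2 ^ 3 := Nat.pow_le_pow_right (by norm_num) (by omega)
    have h2 : (2:ℕ) ^ 3 = 8 := by norm_num
    omega
  clear_value ρ
  have hcρ : cap + ρ + 3 ≤ K := by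
    have h1 : (2:ℝ) ^ (cap + ρ + 3) ≤ 2 ^ K := by
      calc (2:ℝ) ^ (cap + ρ + 3) = 2 ^ (cap + 3) * 2 ^ ρ := by rw [← pow_add]; congr 1; ring
        _ ≤ 2 ^ (cap + 3) * (2 * K) := by gcongr
        _ = 2 ^ (cap + 4) * K := by rw [pow_succ 2 (cap + 3)]; ring
        _ ≤ 2 ^ (cap + 4) * (K:ℝ) ^ 2 := by gcongr
        _ ≤ 2 ^ K := a0
    exact (pow_le_pow_iff_right₀ (by norm_num : (1:ℝ) < 2)).1 h1
  have h8 : 8 * (N0 + 1) ≤ 2 ^ K := by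
    have h1 : 8 * ((N0:ℝ) + 1) ≤ 2 ^ K := by
      have : 8 * ((N0:ℝ) + 1) * 1 ≤ 8 * ((N0:ℝ) + 1) * (K:ℝ) ^ 2 := by gcongr
      linarith
    exact_mod_cast h1
  have hN8 : ∀ x, 8 * (N x + 1) ≤ 2 ^ K := fun x => by have := hN x; omega
  obtain ⟨U, κ, u, hU, hlen, hκ, hnone, hsome, htil⟩ :=
    hC D (by linarith) K cap p N (by omega) (by omega) hp hpD hN8
  have hκρ : ∀ x, κ x + ρ + 3 ≤ K := fun x => by have := hκ x; omega
  have hNr : ∀ x, (N x : ℝ) ≤ N0 := fun x => by exact_mod_cast hN x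
  have hcap2 : ((N0:ℝ) + 1) ≤ 2 ^ cap := by
    have : N0 + 1 ≤ 2 ^ cap := (Nat.lt_two_pow_self (n := N0 + 1)).le
    exact_mod_cast this
  -- the distance to the letter
  have hdist : ∀ x, |((N x : ℝ) + 1) - lett K (u x)| ≤ 12 * 2 ^ κ x := by
    intro x
    rcases hux : u x with _ | t
    · have h1 := hnone x hux
      show |((N x : ℝ) + 1) - 0| ≤ _
      rw [sub_zero, abs_of_nonneg (by positivity), h1]
      have h2 := hNr x
      have h3 : (0:ℝ) < 2 ^ cap := by positivity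
      linarith
    · obtain ⟨_, _, _, _, _, h1⟩ := hsome x t hux
      have h2 : (|((N1 K (N x) - t.l * 2 ^ t.k : ℤ) : ℝ)|) ≤ 12 * 2 ^ κ x := by exact_mod_cast h1
      have h3 : ((N x : ℝ) + 1) - lett K (some t) = ((N1 K (N x) - t.l * 2 ^ t.k : ℤ) : ℝ) := by
        show ((N x : ℝ) + 1) - ((t.l * 2 ^ t.k - MM K : ℤ) : ℝ) = _
        unfold N1
        push_cast
        ring
      rw [h3]
      exact h2
  have hB : ∀ x, |lett K (u x)| ≤ B := by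
    intro x
    have h1 := hdist x
    have h2 : |lett K (u x)| ≤ |((N x : ℝ) + 1)| + |((N x : ℝ) + 1) - lett K (u x)| := by
      have := abs_sub ((N x : ℝ) + 1) (((N x : ℝ) + 1) - lett K (u x))
      rwa [sub_sub_cancel] at this
    rw [abs_of_nonneg (by positivity : (0:ℝ) ≤ (N x : ℝ) + 1)] at h2
    have h3 : (2:ℝ) ^ κ x ≤ 2 ^ cap := pow_le_pow_right₀ (by norm_num) (hκ x)
    have h4 := hNr x
    rw [hBdef]
    linarith
  have hBK : (K : ℝ) * (2 * 2 ^ ρ) * (B / 2 ^ K) ≤ 1 := by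
    rw [mul_div_assoc', div_le_one h2K]
    calc (K : ℝ) * (2 * 2 ^ ρ) * B ≤ (K : ℝ) * (2 * (2 * K)) * B := by gcongr
      _ = 4 * B * (K:ℝ) ^ 2 := by ring
      _ ≤ 2 ^ K := a2
  have hlen' : 3 * 2 ^ K * (1 + ∑ s ∈ U, s.len) ≤ Real.exp ((4 + 3 * (1 + C1)) * D) * 2 ^ K := by
    have h1 : Real.exp ((4 + 3 * (1 + C1)) * D) = Real.exp (4 * D) * Real.exp (3 * (1 + C1) * D) := by
      rw [← Real.exp_add]; congr 1; ring
    have h2 : 3 * (1 + C1) ≤ Real.exp (3 * (1 + C1) * D) := by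
      have h3 := Real.add_one_le_exp (3 * (1 + C1) * D)
      nlinarith
    have h3 : (1:ℝ) ≤ Real.exp (4 * D) := Real.one_le_exp (by linarith)
    have h4 : 1 + ∑ s ∈ U, s.len ≤ (1 + C1) * Real.exp (4 * D) := by
      rw [add_mul, one_mul]; linarith
    rw [h1]
    calc 3 * 2 ^ K * (1 + ∑ s ∈ U, s.len) ≤ 3 * 2 ^ K * ((1 + C1) * Real.exp (4 * D)) := by gcongr
      _ = (Real.exp (4 * D) * (3 * (1 + C1))) * 2 ^ K := by ring
      _ ≤ _ := by gcongr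
  set W : Finset (X K) := univ.filter (fun x : X K => MX p x ≤ 1 / 2 * Real.log D ^ 2) with hW
  have hMX0 : ∀ x, 0 ≤ MX p x := fun x => H69.MX_nonneg p x
  have hMXW : ∀ x ∈ W, MX p x ≤ 2 * D := by
    intro x hx
    have h1 := (mem_filter.1 hx).2
    have h2 := log_sq_le (show 1 ≤ D by linarith)
    linarith
  have hWc : (W.card : ℝ) ≤ 2 ^ K := by
    have h1 : W.card ≤ 2 ^ K := by
      have := card_le_univ W
      rwa [ZMod.card] at this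
    exact_mod_cast h1
  have hMXs : ∑ x ∈ W, MX p x ≤ 2 * D * 2 ^ K := by
    calc ∑ x ∈ W, MX p x ≤ ∑ x ∈ W, (2 * D) := sum_le_sum hMXW
      _ = W.card * (2 * D) := by rw [sum_const, nsmul_eq_mul]
      _ ≤ 2 ^ K * (2 * D) := by gcongr
      _ = _ := by ring
  -- the pointwise estimate
  set wt : ℕ → ℝ := fun k => 1 / (((2 ^ ρ + k : ℕ) : ℝ) * (((2 ^ ρ + k : ℕ) : ℝ) * 2 ^ (K - ρ - 1 + 1)))
    with hwt
  have hwt0 : ∀ k, 0 ≤ wt k := fun k => by rw [hwt]; positivity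
  set G : ℕ → ℤ → X K → ℝ := fun k a x =>
    ‖PET.Sh (2 ^ ρ + k) (K - ρ - κ x - 3) a (Fc p (lett K (u x))) (x.val : ℤ)‖ with hGdef
  have hG0 : ∀ k a x, 0 ≤ G k a x := fun k a x => norm_nonneg _
  have hpt : ∀ x, ‖SG (N x) p x‖ ≤ 2 * ‖tiles (κ x) (N1 K (N x)) (fM p) x‖
      + C2 * ∑ k ∈ range (2 ^ ρ), ∑ a ∈ Ico (0:ℤ) (((2 ^ ρ + k : ℕ) : ℤ) * 2 ^ (K - ρ - 1 + 1)),
        wt k * (G k a x + C3 * MX p x)
      + C2 * 2 * MX p x + C2 := by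
    intro x
    have h1 := hS K (κ x) ρ (K - ρ - 1) (N x) p (Real.exp D) x (hκρ x) hρ4 (by omega) hp hpD (hN8 x)
    refine h1.trans ?_
    have e1 : (1 + (K:ℝ) / 2 ^ ρ) ≤ 2 := by
      have : (K:ℝ) / 2 ^ ρ ≤ 1 := by rw [div_le_one (by positivity)]; exact hρ1r
      linarith
    have e2 : C2' * (1 + (K:ℝ) / 2 ^ ρ) * MX p x ≤ C2 * 2 * MX p x := by
      have h3 : 0 ≤ 1 + (K:ℝ) / 2 ^ ρ := by positivity
      have := hMX0 x
      gcongr
    have e3 : C2' * ((N x : ℝ) + 1) * 2 ^ ρ * Real.exp D / 2 ^ K ≤ C2 := by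
      rw [div_le_iff₀ h2K]
      have h3 := hNr x
      calc C2' * ((N x : ℝ) + 1) * 2 ^ ρ * Real.exp D
          ≤ C2 * ((N0 : ℝ) + 1) * (2 * K) * Real.exp D := by gcongr
        _ = C2 * (2 * ((N0:ℝ) + 1) * Real.exp D * K) := by ring
        _ ≤ C2 * (2 * ((N0:ℝ) + 1) * Real.exp D * (K:ℝ) ^ 2) := by gcongr
        _ ≤ C2 * 2 ^ K := by gcongr
    have e4 : ∀ k ∈ range (2 ^ ρ), ∀ a : ℤ,
        ‖PET.Sh (2 ^ ρ + k) (K - ρ - κ x - 3) a (Fc p (N x + 1)) (x.val : ℤ)‖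
          ≤ G k a x + C3 * MX p x := by
      intro k hk a
      have hk' := mem_range.1 hk
      have hr1 : 1 ≤ 2 ^ ρ + k := by have := Nat.one_le_two_pow (n := ρ); omega
      have hrk : (2 ^ ρ + k) * 2 ^ (K - ρ - κ x - 3) ≤ 2 ^ (K - κ x - 2) := by
        have hκx := hκρ x
        calc (2 ^ ρ + k) * 2 ^ (K - ρ - κ x - 3)
            ≤ (2 ^ (ρ + 1)) * 2 ^ (K - ρ - κ x - 3) := by
              refine Nat.mul_le_mul_right _ ?_
              rw [pow_succ]; omega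
          _ = 2 ^ (K - κ x - 2) := by rw [← pow_add]; congr 1; omega
      have h4 : 4 * (2 ^ ρ + k) * 2 ^ (K - ρ - κ x - 3) ≤ 2 ^ K := by
        rw [mul_assoc]
        calc 4 * ((2 ^ ρ + k) * 2 ^ (K - ρ - κ x - 3)) ≤ 4 * 2 ^ (K - κ x - 2) :=
              Nat.mul_le_mul_left _ hrk
          _ = 2 ^ (K - κ x) := by
              have := hκρ x
              have e : K - κ x = (K - κ x - 2) + 2 := by omega
              rw [e, pow_add]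
              norm_num
              ring
          _ ≤ 2 ^ K := Nat.pow_le_pow_right (by norm_num) (by omega)
      have h5 : |((N x : ℝ) + 1) - lett K (u x)| * (((2 ^ ρ + k : ℕ) : ℝ) * 2 ^ (K - ρ - κ x - 3))
          ≤ 3 * 2 ^ K := by
        have h6 : (((2 ^ ρ + k : ℕ) : ℝ) * 2 ^ (K - ρ - κ x - 3)) ≤ 2 ^ (K - κ x - 2) := by
          exact_mod_cast hrk
        calc |((N x : ℝ) + 1) - lett K (u x)|
              * (((2 ^ ρ + k : ℕ) : ℝ) * 2 ^ (K - ρ - κ x - 3))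
            ≤ (12 * (2:ℝ) ^ κ x) * (2:ℝ) ^ (K - κ x - 2) := by
              have := hdist x
              gcongr
          _ = 3 * 2 ^ K := by
              have := hκρ x
              have e : (2:ℝ) ^ K = 2 ^ κ x * 2 ^ (K - κ x - 2) * 2 ^ 2 := by
                rw [← pow_add, ← pow_add]; congr 1; omega
              rw [e]; ring
      have h7 := hL K (2 ^ ρ + k) (K - ρ - κ x - 3) a p ((N x : ℝ) + 1) (lett K (u x)) x hr1 h4 hp h5
      have h8 := norm_sub_norm_le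
        (Spec.e (((N x : ℝ) + 1) * x.val / 2 ^ K)
          * PET.Sh (2 ^ ρ + k) (K - ρ - κ x - 3) a (Fc p ((N x : ℝ) + 1)) (x.val : ℤ))
        (Spec.e (lett K (u x) * x.val / 2 ^ K)
          * PET.Sh (2 ^ ρ + k) (K - ρ - κ x - 3) a (Fc p (lett K (u x))) (x.val : ℤ))
      rw [norm_mul, norm_mul, H69.norm_e, H69.norm_e, one_mul, one_mul] at h8
      have h9 : C3' * MX p x ≤ C3 * MX p x := mul_le_mul_of_nonneg_right hC3' (hMX0 x)
      show _ ≤ ‖PET.Sh (2 ^ ρ + k) (K - ρ - κ x - 3) a (Fc p (lett K (u x))) (x.val : ℤ)‖ + _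
      linarith
    have e5 : C2' * ∑ k ∈ range (2 ^ ρ), ∑ a ∈ Ico (0:ℤ) (((2 ^ ρ + k : ℕ) : ℤ) * 2 ^ (K - ρ - 1 + 1)),
        (1 / (((2 ^ ρ + k : ℕ) : ℝ) * (((2 ^ ρ + k : ℕ) : ℝ) * 2 ^ (K - ρ - 1 + 1))))
          * ‖PET.Sh (2 ^ ρ + k) (K - ρ - κ x - 3) a (Fc p (N x + 1)) (x.val : ℤ)‖
        ≤ C2 * ∑ k ∈ range (2 ^ ρ), ∑ a ∈ Ico (0:ℤ) (((2 ^ ρ + k : ℕ) : ℤ) * 2 ^ (K - ρ - 1 + 1)),
        wt k * (G k a x + C3 * MX p x) := by
      refine mul_le_mul hC2' ?_ ?_ hC20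
      · exact sum_le_sum fun k hk => sum_le_sum fun a _ =>
          mul_le_mul_of_nonneg_left (e4 k hk a) (hwt0 k)
      · exact sum_nonneg fun k _ => sum_nonneg fun a _ => mul_nonneg (hwt0 k) (norm_nonneg _)
    linarith
  -- summing over the points
  have hsum : ∑ x ∈ W, ‖SG (N x) p x‖ ≤ (2 * C1 + C2 * (2 * C4 + 2 * C3 + 5)) * D * 2 ^ K := by
    refine (sum_le_sum fun x _ => hpt x).trans ?_
    rw [sum_add_distrib, sum_add_distrib, sum_add_distrib, ← mul_sum, ← mul_sum, ← mul_sum,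
      sum_const, nsmul_eq_mul]
    have f1 : ∑ x ∈ W, ‖tiles (κ x) (N1 K (N x)) (fM p) x‖ ≤ C1 * 2 ^ K := by
      have := htil W
      rwa [div_le_iff₀ h2K] at this
    have f2 : ∑ x ∈ W, ∑ k ∈ range (2 ^ ρ),
        ∑ a ∈ Ico (0:ℤ) (((2 ^ ρ + k : ℕ) : ℤ) * 2 ^ (K - ρ - 1 + 1)),
        wt k * (G k a x + C3 * MX p x)
        = ∑ k ∈ range (2 ^ ρ), ∑ a ∈ Ico (0:ℤ) (((2 ^ ρ + k : ℕ) : ℤ) * 2 ^ (K - ρ - 1 + 1)),
        wt k * ∑ x ∈ W, (G k a x + C3 * MX p x) := by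
      rw [sum_comm]
      refine sum_congr rfl fun k _ => ?_
      rw [sum_comm]
      refine sum_congr rfl fun a _ => ?_
      rw [mul_sum]
    have f3 : ∀ k < 2 ^ ρ, ∀ a : ℤ, ∑ x ∈ W, (G k a x + C3 * MX p x)
        ≤ (2 * C4 + 2 * C3) * D * 2 ^ K := by
      intro k hk a
      rw [sum_add_distrib, ← mul_sum]
      have g1 := one_grid hGR hD a p hp hpD hav κ u U B hk hκρ (fun s hs => (hU s hs).1) hlen'
        (fun x s hx => by
          obtain ⟨q1, _, q2, q3, q4, _⟩ := hsome x s hx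
          exact ⟨q1, q2, q3, q4⟩) hB hBK
      have g2 : (((2 ^ ρ + k) * 2 ^ (K - ρ) : ℕ) : ℝ) ≤ 2 * 2 ^ K := by
        have : (2 ^ ρ + k) * 2 ^ (K - ρ) ≤ 2 * 2 ^ K := by
          calc (2 ^ ρ + k) * 2 ^ (K - ρ) ≤ (2 * 2 ^ ρ) * 2 ^ (K - ρ) :=
                Nat.mul_le_mul_right _ (by omega)
            _ = 2 * 2 ^ K := by rw [mul_assoc, ← pow_add]; congr 2; omega
        exact_mod_cast this
      have g3 : ∑ x ∈ W, G k a x ≤ C4 * D * (2 * 2 ^ K) := by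
        refine le_trans g1 ?_
        gcongr
      have g4 : C3 * ∑ x ∈ W, MX p x ≤ C3 * (2 * D * 2 ^ K) := by gcongr
      linarith
    have f4 : ∑ x ∈ W, ∑ k ∈ range (2 ^ ρ),
        ∑ a ∈ Ico (0:ℤ) (((2 ^ ρ + k : ℕ) : ℤ) * 2 ^ (K - ρ - 1 + 1)),
        wt k * (G k a x + C3 * MX p x) ≤ (2 * C4 + 2 * C3) * D * 2 ^ K := by
      rw [f2]
      exact weights (fun k a => ∑ x ∈ W, (G k a x + C3 * MX p x)) _ (by positivity) f3
    have f5 : C2 * ∑ x ∈ W, ∑ k ∈ range (2 ^ ρ),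
        ∑ a ∈ Ico (0:ℤ) (((2 ^ ρ + k : ℕ) : ℤ) * 2 ^ (K - ρ - 1 + 1)),
        wt k * (G k a x + C3 * MX p x) ≤ C2 * ((2 * C4 + 2 * C3) * D * 2 ^ K) := by gcongr
    have f6 : C2 * 2 * ∑ x ∈ W, MX p x ≤ C2 * 2 * (2 * D * 2 ^ K) := by gcongr
    have f7 : (W.card : ℝ) * C2 ≤ 2 ^ K * C2 := by gcongr
    have f8 : C1 * 2 ^ K ≤ C1 * D * 2 ^ K := by
      have : C1 * 1 ≤ C1 * D := by gcongr; linarith
      rw [mul_one] at this
      gcongr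
    have f9 : 2 ^ K * C2 ≤ C2 * D * 2 ^ K := by
      have : C2 * 1 ≤ C2 * D := by gcongr; linarith
      rw [mul_one] at this
      rw [mul_comm]
      gcongr
    linarith
  -- conclusion
  unfold ave
  rw [div_le_iff₀ h2K]
  have e1 : (∑ x : X K, if MX p x ≤ 1 / 2 * Real.log D ^ 2 then
      ‖H253.SG (N x) (fun y => (p y : ℂ)) x‖ else 0) = ∑ x ∈ W, ‖SG (N x) p x‖ := by
    rw [hW, sum_filter]
    rfl
  rw [e1]
  exact hsum

end Vale.Agent.P091.TOP.H663
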